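import Vale.Agent.P233.Bd3.B1
import Vale.Agent.P233.Bd3.B5

/-!
# Lattice calculus in a calculus `IsDir C`

Chain rule for Lipschitz functions of one variable, locality on level sets, positive part,
maximum, minimum, absolute value, `(f - l)_+`.
-/

set_option linter.all false

open MeasureTheory Filter Topology
open scoped ENNReal NNReal

namespace Vale.Agent.P233

variable {M : Type*} [MeasurableSpace M] {m : Measure M} {C : Calc m}

namespace IsDir

variable (hC : IsDir C)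
include hC
variable {f g h : M →ₘ[m] ℝ}

/-- Chain rule for limits of `C¹` functions. -/
theorem chain_meas (hf : f ∈ C.W) {φ' : ℕ → ℝ → ℝ} (hc : ∀ n, Continuous (φ' n)) {K : ℝ}
    (hK : ∀ n t, |φ' n t| ≤ K) {Φ' : ℝ → ℝ} {F : M →ₘ[m] ℝ}
    (hlim : ∀ᵐ x ∂m, C.Γ f f x ≠ 0 → Tendsto (fun n => φ' n (f x)) atTop (𝓝 (Φ' (f x))))
    (hF : ∀ᵐ x ∂m, Tendsto (fun n => ∫ s in (0 : ℝ)..(f x), φ' n s) atTop (𝓝 (F x))) :
    F ∈ C.W ∧ ∀ g ∈ C.W, ∀ᵐ x ∂m, C.Γ F g x = Φ' (f x) * C.Γ f g x := by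
  have hK0 : 0 ≤ K := (abs_nonneg _).trans (hK 0 0)
  set φ : ℕ → ℝ → ℝ := fun n t => ∫ s in (0 : ℝ)..t, φ' n s with hφ
  have hd : ∀ n t, HasDerivAt (φ n) (φ' n t) t := fun n t =>
    ((hc n).integral_hasStrictDerivAt 0 t).hasDerivAt
  have hφc : ∀ n, Continuous (φ n) := fun n =>
    continuous_iff_continuousAt.2 fun t => (hd n t).continuousAt
  have hφ0 : ∀ n, φ n 0 = 0 := fun n => by simp [hφ]
  have hφK : ∀ n t, |φ n t| ≤ K * |t| := by
    intro n t
    have := intervalIntegral.norm_integral_le_of_norm_le_const (a := 0) (b := t) (C := K)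
      (f := φ' n) (fun s _ => hK n s)
    simpa using this
  set u : ℕ → M →ₘ[m] ℝ := fun n => AEEqFun.comp (φ n) (hφc n) f with hu
  have hch := fun n => hC.chain f hf (φ n) (φ' n) (hφc n) (hc n) (hd n) (hφ0 n) ⟨K, hK n⟩
  have huW : ∀ n, u n ∈ C.W := fun n => (hch n).1
  have huae : ∀ᵐ x ∂m, ∀ n, u n x = φ n (f x) := by
    rw [ae_all_iff]; intro n
    filter_upwards [AEEqFun.coeFn_comp (φ n) (hφc n) f] with x hx
    rw [hu]; exact hx
  have hΓae : ∀ g ∈ C.W, ∀ᵐ x ∂m, ∀ n, C.Γ (u n) g x = φ' n (f x) * C.Γ f g x := by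
    intro g hg
    rw [ae_all_iff]; intro n
    rw [(hch n).2 g hg]
    filter_upwards [mul_ae (AEEqFun.comp (φ' n) (hc n) f) (C.Γ f g),
      AEEqFun.coeFn_comp (φ' n) (hc n) f] with x h1 h2
    rw [h1, h2]; rfl
  -- `F ∈ L²`
  have hf2 := hC.memLp f hf
  have hFle : ∀ᵐ x ∂m, |F x| ≤ K * |f x| := by
    filter_upwards [hF] with x hx
    exact le_of_tendsto hx.abs (Eventually.of_forall fun n => hφK n (f x))
  have hF2 : MemLp F 2 m := by
    refine mem_of_le (mem_smul K hf2) ?_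
    filter_upwards [hFle, smul_ae f K] with x h1 h2
    rw [h2, abs_mul, abs_of_nonneg hK0]; exact h1
  have hu2 : ∀ n, MemLp (u n) 2 m := fun n => hC.memLp _ (huW n)
  -- `L²` convergence
  have hL2 : Tendsto (fun n => I ((u n - F) ^ 2)) atTop (𝓝 0) := by
    have h1 : Tendsto (fun n => I ((u n - F) ^ 2)) atTop (𝓝 (I (0 : M →ₘ[m] ℝ))) := by
      refine I_tendsto_of_dominated (G := fun x => (2 * K) ^ 2 * (f ^ 2 : M →ₘ[m] ℝ) x)
        ((int_of_mem (mem_sq hf2)).const_mul _) ?_ ?_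
      · intro n
        filter_upwards [sq_ae (u n - F), sub_ae (u n) F, huae, hFle, sq_ae f] with x h1 h2 h3 h4 h5
        rw [h1, h2, h3 n, h5, abs_of_nonneg (sq_nonneg _), ← mul_pow, ← sq_abs, ← sq_abs (2 * K * f x)]
        refine pow_le_pow_left₀ (abs_nonneg _) ?_ 2
        rw [abs_mul, abs_of_nonneg (by positivity : (0 : ℝ) ≤ 2 * K)]
        have := abs_sub (φ n (f x)) (F x)
        linarith [hφK n (f x)]
      · have e1 : ∀ᵐ x ∂m, ∀ n, ((u n - F) ^ 2 : M →ₘ[m] ℝ) x = (u n x - F x) ^ 2 := by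
          rw [ae_all_iff]; intro n
          filter_upwards [sq_ae (u n - F), sub_ae (u n) F] with x h1 h2
          rw [h1, h2]
        filter_upwards [e1, huae, hF, zero_ae (M := M) (m := m)] with x h1 h2 h3 h4
        simp only [h1, h2, h4]
        have h5 : Tendsto (fun n => (φ n (f x) - F x) ^ 2) atTop (𝓝 ((F x - F x) ^ 2)) :=
          (h3.sub_const _).pow 2
        simpa using h5
    rwa [I_zero] at h1
  -- the Cauchy property of the energies
  set S : M → ℝ := fun x => Real.sqrt (C.Γ f f x) with hS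
  set v : ℕ → M → ℝ := fun n x => φ' n (f x) * S x with hv
  set w : M → ℝ := fun x => Φ' (f x) * S x with hw
  have hSm : AEStronglyMeasurable S m :=
    Real.continuous_sqrt.comp_aestronglyMeasurable (C.Γ f f).aestronglyMeasurable
  have hvm : ∀ n, AEStronglyMeasurable (v n) m := fun n =>
    ((hc n).comp_aestronglyMeasurable f.aestronglyMeasurable).mul hSm
  have hvw : ∀ᵐ x ∂m, Tendsto (fun n => v n x) atTop (𝓝 (w x)) := by
    filter_upwards [hlim] with x hx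
    simp only [hv, hw]
    by_cases h0 : C.Γ f f x = 0
    · have : S x = 0 := by simp [hS, h0]
      simp [this]
    · exact (hx h0).mul_const _
  have hwm : AEStronglyMeasurable w m := aestronglyMeasurable_of_tendsto_ae atTop hvm hvw
  have hΓint : Integrable (C.Γ f f) m := int_of_mem (hC.mem1 f hf)
  have hS2 : ∀ᵐ x ∂m, S x ^ 2 = C.Γ f f x := by
    filter_upwards [hC.Γ_nonneg_ae hf] with x hx
    exact Real.sq_sqrt hx
  have hvK : ∀ n, ∀ᵐ x ∂m, |v n x| ≤ K * S x := by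
    intro n
    refine Eventually.of_forall fun x => ?_
    simp only [hv]
    rw [abs_mul, abs_of_nonneg (Real.sqrt_nonneg _)]
    exact mul_le_mul_of_nonneg_right (hK n _) (Real.sqrt_nonneg _)
  have hwK : ∀ᵐ x ∂m, |w x| ≤ K * S x := by
    filter_upwards [hvw, ae_all_iff.2 hvK] with x h1 h2
    exact le_of_tendsto h1.abs (Eventually.of_forall h2)
  have hvint : ∀ n, Integrable (fun x => (v n x - w x) ^ 2) m := by
    intro n
    refine (hΓint.const_mul ((2 * K) ^ 2)).mono' (((hvm n).sub hwm).pow 2) ?_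
    filter_upwards [hvK n, hwK, hS2] with x h1 h2 h3
    rw [Real.norm_eq_abs, abs_of_nonneg (sq_nonneg _), ← h3, ← mul_pow, ← sq_abs]
    refine pow_le_pow_left₀ (abs_nonneg _) ?_ 2
    have := abs_sub (v n x) (w x)
    linarith
  have hvlim : Tendsto (fun n => ∫ x, (v n x - w x) ^ 2 ∂m) atTop (𝓝 0) := by
    have h1 : Tendsto (fun n => ∫ x, (v n x - w x) ^ 2 ∂m) atTop (𝓝 (∫ x, (0 : ℝ) ∂m)) := by
      refine tendsto_integral_of_dominated_convergence (fun x => (2 * K) ^ 2 * C.Γ f f x)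
        (fun n => ((hvm n).sub hwm).pow 2) (hΓint.const_mul _) ?_ ?_
      · intro n
        filter_upwards [hvK n, hwK, hS2] with x h1 h2 h3
        rw [Real.norm_eq_abs, abs_of_nonneg (sq_nonneg _), ← h3, ← mul_pow, ← sq_abs]
        refine pow_le_pow_left₀ (abs_nonneg _) ?_ 2
        have := abs_sub (v n x) (w x)
        linarith
      · filter_upwards [hvw] with x hx
        have h5 : Tendsto (fun n => (v n x - w x) ^ 2) atTop (𝓝 ((w x - w x) ^ 2)) :=
          (hx.sub_const _).pow 2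
        simpa using h5
    simpa using h1
  have hEn : ∀ n k, I (C.Γ (u n - u k) (u n - u k)) ≤
      2 * ∫ x, (v n x - w x) ^ 2 ∂m + 2 * ∫ x, (v k x - w x) ^ 2 ∂m := by
    intro n k
    have hnk := hC.sub_mem (huW n) (huW k)
    rw [← integral_const_mul, ← integral_const_mul, ← integral_add ((hvint n).const_mul 2)
      ((hvint k).const_mul 2)]
    unfold I
    refine integral_mono_ae (int_of_mem (hC.mem1 _ hnk)) (((hvint n).const_mul 2).add
      ((hvint k).const_mul 2)) ?_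
    have e1 : C.Γ (u n - u k) (u n - u k) = C.Γ (u n) (u n - u k) - C.Γ (u k) (u n - u k) :=
      hC.Γ_sub_left (huW n) (huW k) hnk
    have e2 : C.Γ f (u n - u k) = C.Γ f (u n) - C.Γ f (u k) := hC.Γ_sub_right hf (huW n) (huW k)
    rw [e1]
    filter_upwards [sub_ae (C.Γ (u n) (u n - u k)) (C.Γ (u k) (u n - u k)), hΓae _ hnk,
      hΓae _ hf, eq_iff_ae.1 e2, sub_ae (C.Γ f (u n)) (C.Γ f (u k)),
      eq_iff_ae.1 (hC.symm f hf (u n) (huW n)), eq_iff_ae.1 (hC.symm f hf (u k) (huW k)), hS2]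
      with x a1 a2 a3 a4 a5 a6 a7 a8
    rw [a1, a2 n, a2 k, a4, a5, a6, a7, a3 n, a3 k]
    have e3 : φ' n (f x) * (φ' n (f x) * C.Γ f f x - φ' k (f x) * C.Γ f f x) -
        φ' k (f x) * (φ' n (f x) * C.Γ f f x - φ' k (f x) * C.Γ f f x) = (v n x - v k x) ^ 2 := by
      simp only [hv]
      rw [← a8]; ring
    rw [e3]
    nlinarith [sq_nonneg ((v n x - w x) + (v k x - w x))]
  obtain ⟨F0, hF0, hlimF0⟩ := hC.complete u huW (by
    intro ε hε
    obtain ⟨N1, hN1⟩ := eventually_atTop.1 (hL2.eventually (gt_mem_nhds (show (0 : ℝ) < ε / 8 by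
      positivity)))
    obtain ⟨N2, hN2⟩ := eventually_atTop.1 (hvlim.eventually (gt_mem_nhds (show (0 : ℝ) < ε / 8 by
      positivity)))
    refine ⟨max N1 N2, fun n hn k hk => ?_⟩
    have a1 := hN1 n ((le_max_left _ _).trans hn)
    have a2 := hN1 k ((le_max_left _ _).trans hk)
    have a3 := hN2 n ((le_max_right _ _).trans hn)
    have a4 := hN2 k ((le_max_right _ _).trans hk)
    have a5 := hEn n k
    have a6 := I_sq_add_le (mem_sub (hu2 n) hF2) (mem_neg (mem_sub (hu2 k) hF2))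
    rw [neg_sq, show u n - F + -(u k - F) = u n - u k by abel] at a6
    unfold Calc.nrm2
    linarith)
  have hFF0 : F0 = F := hC.eq_of_tendsto_I_sq hu2 (hC.memLp _ hF0) hF2
    (hC.tendsto_I_sq_of_nrm2 huW hF0 hlimF0) hL2
  subst hFF0
  refine ⟨hF0, fun g hg => ?_⟩
  have hl := hC.tendsto_int_abs_Γ huW hF0 hg hlimF0
  obtain ⟨ns, hns, hae⟩ := exists_subseq_of_int_abs (u := fun n => C.Γ (u n) g) (f := C.Γ F0 g)
    (fun n => mem_sub (hC.Γ_mem1 (huW n) hg) (hC.Γ_mem1 hF0 hg)) (by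
      refine hl.congr fun n => ?_
      rw [hC.Γ_sub_left (huW n) hF0 hg])
  filter_upwards [hae, hΓae g hg, hlim, hC.Γ_cs_ae hf hg] with x a1 a2 a3 a4
  refine tendsto_nhds_unique a1 ?_
  simp only [a2]
  by_cases h0 : C.Γ f f x = 0
  · have : C.Γ f g x = 0 := by
      rw [h0, zero_mul] at a4
      exact pow_eq_zero_iff (two_ne_zero) |>.1 (le_antisymm a4 (sq_nonneg _))
    simp [this]
  · exact ((a3 h0).comp hns.tendsto_atTop).mul_const _

/-- Locality: `Γ f g` vanishes almost everywhere on the level sets of `f`. -/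
theorem Γ_level (hf : f ∈ C.W) (hg : g ∈ C.W) (c : ℝ) : ∀ᵐ x ∂m, f x = c → C.Γ f g x = 0 := by
  have hlim : ∀ t : ℝ, Tendsto (fun n : ℕ => max 0 (1 - (n : ℝ) * |t - c|)) atTop
      (𝓝 (if t = c then (1 : ℝ) else 0)) := by
    intro t
    by_cases h : t = c
    · simp [h]
    · rw [if_neg h]
      have h1 : 0 < |t - c| := abs_pos.2 (sub_ne_zero.2 h)
      refine tendsto_const_nhds.congr' ?_
      obtain ⟨N, hN⟩ := exists_nat_gt (1 / |t - c|)
      filter_upwards [eventually_ge_atTop N] with n hn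
      have h2 : (1 : ℝ) ≤ (n : ℝ) * |t - c| := by
        rw [← div_le_iff₀ h1]
        exact hN.le.trans (by exact_mod_cast hn)
      rw [max_eq_left (by linarith)]
  have hb : ∀ (n : ℕ) (t : ℝ), |max 0 (1 - (n : ℝ) * |t - c|)| ≤ 1 := by
    intro n t
    rw [abs_of_nonneg (le_max_left _ _)]
    refine max_le zero_le_one ?_
    have : 0 ≤ (n : ℝ) * |t - c| := by positivity
    linarith
  have h := hC.chain_meas hf (φ' := fun n t => max 0 (1 - (n : ℝ) * |t - c|))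
    (fun n => by fun_prop) hb (Φ' := fun t => if t = c then (1 : ℝ) else 0) (F := 0)
    (Eventually.of_forall fun x _ => hlim (f x)) (by
      filter_upwards [zero_ae (M := M) (m := m)] with x hx
      rw [hx]
      have h1 : Tendsto (fun n : ℕ => ∫ s in (0 : ℝ)..(f x), max 0 (1 - (n : ℝ) * |s - c|)) atTop
          (𝓝 (∫ s in (0 : ℝ)..(f x), if s = c then (1 : ℝ) else 0)) := by
        refine intervalIntegral.tendsto_integral_filter_of_dominated_convergence (fun _ => 1)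
          ?_ ?_ ?_ ?_
        · exact Eventually.of_forall fun n =>
            (by fun_prop : Continuous fun s : ℝ => max 0 (1 - (n : ℝ) * |s - c|)).aestronglyMeasurable
        · exact Eventually.of_forall fun n => Eventually.of_forall fun s _ => hb n s
        · exact intervalIntegrable_const
        · exact Eventually.of_forall fun s _ => hlim s
      have h2 : ∫ s in (0 : ℝ)..(f x), (if s = c then (1 : ℝ) else 0) = 0 := by
        refine intervalIntegral.integral_zero_ae ?_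
        have h3 : ∀ᵐ s : ℝ, s ≠ c := by
          rw [ae_iff]; simp
        filter_upwards [h3] with s hs _
        simp [hs]
      rwa [h2] at h1)
  filter_upwards [h.2 g hg, eq_iff_ae.1 (hC.Γ_zero_left hg), zero_ae (M := M) (m := m)]
    with x h1 h2 h3 hx
  rw [h2, h3, if_pos hx, one_mul] at h1
  exact h1.symm

/-- Locality on a countable union of level sets. -/
theorem Γ_levels (hf : f ∈ C.W) (hg : g ∈ C.W) {S : Set ℝ} (hS : S.Countable) :
    ∀ᵐ x ∂m, f x ∈ S → C.Γ f g x = 0 := by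
  have h1 : ∀ᵐ x ∂m, ∀ c ∈ S, f x = c → C.Γ f g x = 0 :=
    (ae_ball_iff hS).2 fun c _ => hC.Γ_level hf hg c
  filter_upwards [h1] with x hx hxS
  exact hx _ hxS rfl

/-- Locality. -/
theorem Γ_ae_zero (hf : f ∈ C.W) (hg : g ∈ C.W) : ∀ᵐ x ∂m, f x = 0 → C.Γ f g x = 0 :=
  hC.Γ_level hf hg 0

/-- `Γ f g = Γ h g` almost everywhere on `{f = h}`. -/
theorem Γ_eq_on (hf : f ∈ C.W) (hh : h ∈ C.W) (hg : g ∈ C.W) :
    ∀ᵐ x ∂m, f x = h x → C.Γ f g x = C.Γ h g x := by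
  filter_upwards [hC.Γ_ae_zero (hC.sub_mem hf hh) hg, eq_iff_ae.1 (hC.Γ_sub_left hf hh hg),
    sub_ae f h, sub_ae (C.Γ f g) (C.Γ h g)] with x h1 h2 h3 h4 hx
  have h5 := h1 (by rw [h3, hx, sub_self])
  rw [h2, h4] at h5
  linarith

/-- Chain rule for Lipschitz functions that are differentiable outside a countable set. -/
theorem chain_lip (hf : f ∈ C.W) {Φ : ℝ → ℝ} {K : ℝ≥0} (hL : LipschitzWith K Φ) (h0 : Φ 0 = 0)
    {Φ' : ℝ → ℝ} {S : Set ℝ} (hS : S.Countable) (hd : ∀ t, t ∉ S → HasDerivAt Φ (Φ' t) t) :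
    AEEqFun.comp Φ hL.continuous f ∈ C.W ∧
      ∀ g ∈ C.W, ∀ᵐ x ∂m, C.Γ (AEEqFun.comp Φ hL.continuous f) g x = Φ' (f x) * C.Γ f g x := by
  have hcont := hL.continuous
  have hn : ∀ n : ℕ, (0 : ℝ) < (n : ℝ) + 1 := fun n => by positivity
  have hlip : ∀ s t, |Φ s - Φ t| ≤ K * |s - t| := by
    intro s t
    have := hL.dist_le_mul s t
    rwa [Real.dist_eq, Real.dist_eq] at this
  have hT : ∀ t : ℝ, Tendsto (fun n : ℕ => t + ((n : ℝ) + 1)⁻¹) atTop (𝓝 t) := by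
    intro t
    simpa using tendsto_inv_succ.const_add t
  refine hC.chain_meas hf (φ' := fun n t => ((n : ℝ) + 1) * (Φ (t + ((n : ℝ) + 1)⁻¹) - Φ t))
    (K := K) (fun n => by fun_prop) ?_ ?_ ?_
  · intro n t
    rw [abs_mul, abs_of_pos (hn n)]
    have h1 := hlip (t + ((n : ℝ) + 1)⁻¹) t
    rw [add_sub_cancel_left, abs_of_pos (inv_pos.2 (hn n))] at h1
    calc ((n : ℝ) + 1) * |Φ (t + ((n : ℝ) + 1)⁻¹) - Φ t|
        ≤ ((n : ℝ) + 1) * (K * ((n : ℝ) + 1)⁻¹) := mul_le_mul_of_nonneg_left h1 (hn n).le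
      _ = K := by have := hn n; field_simp
  · filter_upwards [hC.Γ_levels hf hf hS] with x hx hx0
    have hxS : f x ∉ S := fun h => hx0 (hx h)
    have h1 := (hd _ hxS).tendsto_slope
    have h2 : Tendsto (fun n : ℕ => f x + ((n : ℝ) + 1)⁻¹) atTop (𝓝[≠] (f x)) := by
      refine tendsto_nhdsWithin_iff.2 ⟨hT _, Eventually.of_forall fun n => ?_⟩
      have := inv_pos.2 (hn n)
      simp only [Set.mem_compl_iff, Set.mem_singleton_iff]
      linarith
    refine (h1.comp h2).congr fun n => ?_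
    simp only [Function.comp_apply, slope_def_field, add_sub_cancel_left]
    rw [div_inv_eq_mul, mul_comm]
  · filter_upwards [AEEqFun.coeFn_comp Φ hcont f] with x hx
    rw [hx, Function.comp_apply]
    set y := f x with hy
    -- `∫₀^y (n+1)(Φ(s+1/(n+1)) - Φ s) ds → Φ y - Φ 0`
    have key : ∀ n : ℕ, |(∫ s in (0 : ℝ)..y, ((n : ℝ) + 1) * (Φ (s + ((n : ℝ) + 1)⁻¹) - Φ s)) - Φ y| ≤
        2 * K * ((n : ℝ) + 1)⁻¹ := by
      intro n
      set d := ((n : ℝ) + 1)⁻¹ with hdd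
      have hd0 : 0 < d := inv_pos.2 (hn n)
      have hii : ∀ a b : ℝ, IntervalIntegrable Φ volume a b := fun a b =>
        hcont.intervalIntegrable a b
      have hcs : Continuous fun s => Φ (s + d) := hcont.comp (continuous_id.add continuous_const)
      have e1 : ∫ s in (0 : ℝ)..y, ((n : ℝ) + 1) * (Φ (s + d) - Φ s) =
          ((n : ℝ) + 1) * ((∫ s in y..(y + d), Φ s) - ∫ s in (0 : ℝ)..d, Φ s) := by
        rw [intervalIntegral.integral_const_mul,
          intervalIntegral.integral_sub (hcs.intervalIntegrable _ _) (hii _ _),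
          intervalIntegral.integral_comp_add_right (fun s => Φ s) d, zero_add]
        congr 1
        have a1 := intervalIntegral.integral_add_adjacent_intervals (hii 0 d) (hii d (y + d))
        have a2 := intervalIntegral.integral_add_adjacent_intervals (hii 0 y) (hii y (y + d))
        linarith
      have avg : ∀ a : ℝ, |((n : ℝ) + 1) * (∫ s in a..(a + d), Φ s) - Φ a| ≤ K * d := by
        intro a
        have e2 : ((n : ℝ) + 1) * (∫ s in a..(a + d), Φ s) - Φ a =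
            ((n : ℝ) + 1) * ∫ s in a..(a + d), (Φ s - Φ a) := by
          rw [intervalIntegral.integral_sub (hii _ _) intervalIntegrable_const,
            intervalIntegral.integral_const, smul_eq_mul, add_sub_cancel_left, hdd]
          have := hn n
          field_simp
        have e3 : ‖∫ s in a..(a + d), (Φ s - Φ a)‖ ≤ K * d * |a + d - a| := by
          refine intervalIntegral.norm_integral_le_of_norm_le_const fun s hs => ?_
          rw [Set.uIoc_of_le (by linarith)] at hs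
          rw [Real.norm_eq_abs]
          refine (hlip s a).trans (mul_le_mul_of_nonneg_left ?_ K.2)
          rw [abs_of_nonneg (by linarith [hs.1])]
          linarith [hs.2]
        rw [e2, abs_mul, abs_of_pos (hn n)]
        rw [Real.norm_eq_abs, add_sub_cancel_left, abs_of_pos hd0] at e3
        calc ((n : ℝ) + 1) * |∫ s in a..(a + d), (Φ s - Φ a)|
            ≤ ((n : ℝ) + 1) * (K * d * d) := mul_le_mul_of_nonneg_left e3 (hn n).le
          _ = K * d := by rw [hdd]; have := hn n; field_simp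
      have b1 := avg y
      have b2 := avg 0
      rw [zero_add, h0, sub_zero] at b2
      rw [e1, mul_sub]
      have e4 : ((n : ℝ) + 1) * (∫ s in y..(y + d), Φ s) - ((n : ℝ) + 1) * (∫ s in (0 : ℝ)..d, Φ s) - Φ y =
          (((n : ℝ) + 1) * (∫ s in y..(y + d), Φ s) - Φ y) - ((n : ℝ) + 1) * (∫ s in (0 : ℝ)..d, Φ s) := by
        ring
      rw [e4]
      have := abs_sub (((n : ℝ) + 1) * (∫ s in y..(y + d), Φ s) - Φ y)
        (((n : ℝ) + 1) * (∫ s in (0 : ℝ)..d, Φ s))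
      linarith
    rw [tendsto_iff_norm_sub_tendsto_zero]
    refine squeeze_zero (fun n => norm_nonneg _) (fun n => key n) ?_
    simpa using tendsto_inv_succ.const_mul (2 * (K : ℝ))

/-! ### constants at infinity -/

/-- Chain rule for Lipschitz functions of `c + W`. -/
theorem chain_lip_const {c : ℝ} (hf : f - c • (1 : M →ₘ[m] ℝ) ∈ C.W) {Φ : ℝ → ℝ} {K : ℝ≥0}
    (hL : LipschitzWith K Φ) {Φ' : ℝ → ℝ} {S : Set ℝ} (hS : S.Countable)
    (hd : ∀ t, t ∉ S → HasDerivAt Φ (Φ' t) t) :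
    AEEqFun.comp Φ hL.continuous f - Φ c • (1 : M →ₘ[m] ℝ) ∈ C.W ∧
      ∀ g ∈ C.W, ∀ᵐ x ∂m, C.Γ (AEEqFun.comp Φ hL.continuous f - Φ c • (1 : M →ₘ[m] ℝ)) g x =
        Φ' (f x) * C.Γ (f - c • (1 : M →ₘ[m] ℝ)) g x := by
  have hL2 : LipschitzWith K fun t => Φ (t + c) - Φ c := by
    refine LipschitzWith.of_dist_le_mul fun s t => ?_
    have := hL.dist_le_mul (s + c) (t + c)
    rwa [Real.dist_eq, Real.dist_eq, add_sub_add_right_eq_sub, ← sub_sub_sub_cancel_right _ _ (Φ c),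
      ← Real.dist_eq, ← Real.dist_eq] at this
  have hS2 : ((fun t => t + c) ⁻¹' S).Countable :=
    hS.preimage (add_left_injective c)
  obtain ⟨h1, h2⟩ := hC.chain_lip hf hL2 (by simp) (Φ' := fun t => Φ' (t + c)) hS2 (by
    intro t ht
    exact ((hd (t + c) ht).comp_add_const t c).sub_const _)
  have e : AEEqFun.comp Φ hL.continuous f - Φ c • (1 : M →ₘ[m] ℝ) =
      AEEqFun.comp (fun t => Φ (t + c) - Φ c) hL2.continuous (f - c • (1 : M →ₘ[m] ℝ)) := by
    rw [eq_iff_ae]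
    filter_upwards [sub_ae (AEEqFun.comp Φ hL.continuous f) (Φ c • (1 : M →ₘ[m] ℝ)),
      AEEqFun.coeFn_comp Φ hL.continuous f, smul_ae (Φ c) (f := (1 : M →ₘ[m] ℝ)),
      one_ae (M := M) (m := m),
      AEEqFun.coeFn_comp (fun t => Φ (t + c) - Φ c) hL2.continuous (f - c • (1 : M →ₘ[m] ℝ)),
      sub_ae f (c • (1 : M →ₘ[m] ℝ)), smul_ae c (f := (1 : M →ₘ[m] ℝ))] with x a1 a2 a3 a4 a5 a6 a7
    rw [a1, a2, a3, a4, a5, Function.comp_apply, Function.comp_apply, a6, a7, a4]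
    simp
  rw [e]
  refine ⟨h1, fun g hg => ?_⟩
  filter_upwards [h2 g hg, sub_ae f (c • (1 : M →ₘ[m] ℝ)), smul_ae c (f := (1 : M →ₘ[m] ℝ)),
    one_ae (M := M) (m := m)] with x a1 a2 a3 a4
  rw [a1, a2, a3, a4]
  simp

/-! ### positive part, maximum, minimum, absolute value -/

theorem lipPos (l : ℝ) : LipschitzWith 1 fun t : ℝ => max (t - l) 0 :=
  LipschitzWith.of_dist_le_mul fun s t => by
    rw [Real.dist_eq, Real.dist_eq, NNReal.coe_one, one_mul]
    have := abs_max_sub_max_le_abs (s - l) (t - l) 0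
    simpa using this

theorem lipPos_deriv (l t : ℝ) (ht : t ∉ ({l} : Set ℝ)) :
    HasDerivAt (fun t : ℝ => max (t - l) 0) (if l < t then 1 else 0) t := by
  rcases lt_trichotomy t l with h | h | h
  · rw [if_neg h.not_gt]
    refine (hasDerivAt_const t (0 : ℝ)).congr_of_eventuallyEq ?_
    filter_upwards [Iio_mem_nhds h] with s hs
    exact max_eq_right (by simp only [Set.mem_Iio] at hs; linarith)
  · exact absurd h ht
  · rw [if_pos h]
    refine ((hasDerivAt_id t).sub_const l).congr_of_eventuallyEq ?_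
    filter_upwards [Ioi_mem_nhds h] with s hs
    simp only [Set.mem_Ioi] at hs
    exact max_eq_left (by linarith)

theorem posl_aux (l : ℝ) : AEEqFun.comp (fun t : ℝ => max (t - l) 0) (lipPos hC l).continuous f =
    (f - l • (1 : M →ₘ[m] ℝ)) ⊔ 0 := by
  rw [eq_iff_ae]
  filter_upwards [AEEqFun.coeFn_comp (fun t : ℝ => max (t - l) 0) (lipPos hC l).continuous f,
    AEEqFun.coeFn_sup (f - l • (1 : M →ₘ[m] ℝ)) 0, sub_ae f (l • (1 : M →ₘ[m] ℝ)),
    smul_ae l (f := (1 : M →ₘ[m] ℝ)), one_ae (M := M) (m := m), zero_ae (M := M) (m := m)]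
    with x a1 a2 a3 a4 a5 a6
  rw [a1, a2, a3, a4, a5, a6, Function.comp_apply, mul_one]

theorem posl_mem {l : ℝ} (hl : 0 ≤ l) (hf : f ∈ C.W) : (f - l • (1 : M →ₘ[m] ℝ)) ⊔ 0 ∈ C.W := by
  rw [← hC.posl_aux]
  exact (hC.chain_lip hf (lipPos hC l) (by simp [hl]) (Set.countable_singleton l)
    (lipPos_deriv hC l)).1

/-- `Γ((f - l)₊, g) = 1_{f > l} Γ(f, g)`. -/
theorem Γ_posl {l : ℝ} (hl : 0 ≤ l) (hf : f ∈ C.W) (hg : g ∈ C.W) :
    ∀ᵐ x ∂m, C.Γ ((f - l • (1 : M →ₘ[m] ℝ)) ⊔ 0) g x = if l < f x then C.Γ f g x else 0 := by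
  rw [← hC.posl_aux]
  filter_upwards [(hC.chain_lip hf (lipPos hC l) (by simp [hl]) (Set.countable_singleton l)
    (lipPos_deriv hC l)).2 g hg] with x hx
  rw [hx]
  split_ifs <;> simp

/-- `(f - l)₊ ∈ W` for `f ∈ c + W`, `c ≤ l`. -/
theorem posl_mem_const {c l : ℝ} (hl : c ≤ l) (hf : f - c • (1 : M →ₘ[m] ℝ) ∈ C.W) :
    (f - l • (1 : M →ₘ[m] ℝ)) ⊔ 0 ∈ C.W := by
  have h := (hC.chain_lip_const hf (lipPos hC l) (Set.countable_singleton l)
    (lipPos_deriv hC l)).1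
  rw [hC.posl_aux] at h
  simpa [max_eq_right (sub_nonpos.2 hl)] using h

theorem Γ_posl_const {c l : ℝ} (hl : c ≤ l) (hf : f - c • (1 : M →ₘ[m] ℝ) ∈ C.W)
    (hg : g ∈ C.W) :
    ∀ᵐ x ∂m, C.Γ ((f - l • (1 : M →ₘ[m] ℝ)) ⊔ 0) g x =
      if l < f x then C.Γ (f - c • (1 : M →ₘ[m] ℝ)) g x else 0 := by
  have h := (hC.chain_lip_const hf (lipPos hC l) (Set.countable_singleton l)
    (lipPos_deriv hC l)).2 g hg
  rw [hC.posl_aux] at h
  have e : (f - l • (1 : M →ₘ[m] ℝ)) ⊔ 0 - max (c - l) 0 • (1 : M →ₘ[m] ℝ) =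
      (f - l • (1 : M →ₘ[m] ℝ)) ⊔ 0 := by
    simp [max_eq_right (sub_nonpos.2 hl)]
  rw [e] at h
  filter_upwards [h] with x hx
  rw [hx]
  split_ifs <;> simp

theorem pos_mem (hf : f ∈ C.W) : f ⊔ 0 ∈ C.W := by
  simpa using hC.posl_mem le_rfl hf

/-- `Γ(f₊, g) = 1_{f > 0} Γ(f, g)`. -/
theorem Γ_pos (hf : f ∈ C.W) (hg : g ∈ C.W) :
    ∀ᵐ x ∂m, C.Γ (f ⊔ 0) g x = if 0 < f x then C.Γ f g x else 0 := by
  simpa using hC.Γ_posl le_rfl hf hg

/-- `Γ(f, f₊) = Γ(f₊, f₊)`. -/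
theorem Γ_pos_self (hf : f ∈ C.W) : C.Γ f (f ⊔ 0) = C.Γ (f ⊔ 0) (f ⊔ 0) := by
  rw [eq_iff_ae, hC.symm _ hf _ (hC.pos_mem hf)]
  filter_upwards [hC.Γ_pos hf hf, hC.Γ_pos hf (hC.pos_mem hf),
    eq_iff_ae.1 (hC.symm _ (hC.pos_mem hf) _ hf)] with x h1 h2 h3
  rw [h2, ← h3, h1]
  split_ifs <;> rfl

/-- `f ⊔ g = g + (f - g)₊`. -/
theorem sup_eq (f g : M →ₘ[m] ℝ) : f ⊔ g = g + (f - g) ⊔ 0 := by
  rw [eq_iff_ae]
  filter_upwards [AEEqFun.coeFn_sup f g, add_ae g ((f - g) ⊔ 0), AEEqFun.coeFn_sup (f - g) 0,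
    sub_ae f g, zero_ae (M := M) (m := m)] with x a1 a2 a3 a4 a5
  rw [a1, a2, a3, a4, a5]
  rcases le_total (f x) (g x) with h | h
  · rw [sup_eq_right.2 h, sup_eq_right.2 (by linarith)]; ring
  · rw [sup_eq_left.2 h, sup_eq_left.2 (by linarith)]; ring

/-- `f ⊓ g = f - (f - g)₊`. -/
theorem inf_eq (f g : M →ₘ[m] ℝ) : f ⊓ g = f - (f - g) ⊔ 0 := by
  rw [eq_iff_ae]
  filter_upwards [AEEqFun.coeFn_inf f g, sub_ae f ((f - g) ⊔ 0), AEEqFun.coeFn_sup (f - g) 0,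
    sub_ae f g, zero_ae (M := M) (m := m)] with x a1 a2 a3 a4 a5
  rw [a1, a2, a3, a4, a5]
  rcases le_total (f x) (g x) with h | h
  · rw [inf_eq_left.2 h, sup_eq_right.2 (by linarith)]; ring
  · rw [inf_eq_right.2 h, sup_eq_left.2 (by linarith)]; ring

theorem sup_mem (hf : f ∈ C.W) (hg : g ∈ C.W) : f ⊔ g ∈ C.W := by
  rw [hC.sup_eq]
  exact hC.add_mem _ hg _ (hC.pos_mem (hC.sub_mem hf hg))

theorem inf_mem (hf : f ∈ C.W) (hg : g ∈ C.W) : f ⊓ g ∈ C.W := by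
  rw [hC.inf_eq]
  exact hC.sub_mem hf (hC.pos_mem (hC.sub_mem hf hg))

theorem Γ_sup (hf : f ∈ C.W) (hg : g ∈ C.W) (hh : h ∈ C.W) :
    ∀ᵐ x ∂m, C.Γ (f ⊔ g) h x = if g x < f x then C.Γ f h x else C.Γ g h x := by
  have hfg := hC.sub_mem hf hg
  rw [hC.sup_eq, hC.add_left _ hg _ (hC.pos_mem hfg) _ hh]
  filter_upwards [add_ae (C.Γ g h) (C.Γ ((f - g) ⊔ 0) h), hC.Γ_pos hfg hh, sub_ae f g,
    eq_iff_ae.1 (hC.Γ_sub_left hf hg hh), sub_ae (C.Γ f h) (C.Γ g h)] with x a1 a2 a3 a4 a5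
  rw [a1, a2, a3, a4, a5]
  by_cases hx : g x < f x
  · rw [if_pos hx, if_pos (by linarith)]; ring
  · rw [if_neg hx, if_neg (by linarith)]; ring

theorem Γ_inf (hf : f ∈ C.W) (hg : g ∈ C.W) (hh : h ∈ C.W) :
    ∀ᵐ x ∂m, C.Γ (f ⊓ g) h x = if g x < f x then C.Γ g h x else C.Γ f h x := by
  have hfg := hC.sub_mem hf hg
  rw [hC.inf_eq, hC.Γ_sub_left hf (hC.pos_mem hfg) hh]
  filter_upwards [sub_ae (C.Γ f h) (C.Γ ((f - g) ⊔ 0) h), hC.Γ_pos hfg hh, sub_ae f g,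
    eq_iff_ae.1 (hC.Γ_sub_left hf hg hh), sub_ae (C.Γ f h) (C.Γ g h)] with x a1 a2 a3 a4 a5
  rw [a1, a2, a3, a4, a5]
  by_cases hx : g x < f x
  · rw [if_pos hx, if_pos (by linarith)]; ring
  · rw [if_neg hx, if_neg (by linarith)]; ring

/-- `Γ (f ⊔ g) h + Γ (f ⊓ g) h = Γ f h + Γ g h`. -/
theorem Γ_sup_add_inf (hf : f ∈ C.W) (hg : g ∈ C.W) (hh : h ∈ C.W) :
    C.Γ (f ⊔ g) h + C.Γ (f ⊓ g) h = C.Γ f h + C.Γ g h := by
  rw [← hC.add_left _ (hC.sup_mem hf hg) _ (hC.inf_mem hf hg) _ hh, ← hC.add_left _ hf _ hg _ hh]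
  congr 1
  rw [hC.sup_eq, hC.inf_eq]
  abel

theorem abs_eq (f : M →ₘ[m] ℝ) : |f| = f ⊔ (-f) := rfl

theorem neg_mem' (hf : f ∈ C.W) : -f ∈ C.W := by
  have := hC.smul_mem (-1) f hf
  rwa [neg_one_smul] at this

theorem abs_mem (hf : f ∈ C.W) : |f| ∈ C.W := hC.sup_mem hf (hC.neg_mem' hf)

theorem Γ_abs (hf : f ∈ C.W) (hg : g ∈ C.W) :
    ∀ᵐ x ∂m, C.Γ |f| g x = if 0 < f x then C.Γ f g x else - C.Γ f g x := by
  have e : C.Γ (-f) g = - C.Γ f g := by
    have := hC.smul_left (-1) f hf g hg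
    rwa [neg_one_smul, neg_one_smul] at this
  rw [hC.abs_eq]
  filter_upwards [hC.Γ_sup hf (hC.neg_mem' hf) hg, neg_ae f, neg_ae (C.Γ f g)] with x a1 a2 a3
  rw [a1, a2, e, a3]
  by_cases hx : 0 < f x
  · rw [if_pos hx, if_pos (by linarith)]
  · rw [if_neg hx, if_neg (by linarith)]

theorem Γ_abs_abs (hf : f ∈ C.W) : C.Γ |f| |f| = C.Γ f f := by
  rw [eq_iff_ae]
  filter_upwards [hC.Γ_abs hf (hC.abs_mem hf), hC.Γ_abs hf hf,
    eq_iff_ae.1 (hC.symm _ (hC.abs_mem hf) _ hf)] with x a1 a2 a3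
  rw [a1, ← a3, a2]
  split_ifs <;> ring

/-- The positive part does not increase the energy. -/
theorem Γ_pos_le (hf : f ∈ C.W) : C.Γ (f ⊔ 0) (f ⊔ 0) ≤ C.Γ f f := by
  rw [le_iff_ae, ← hC.Γ_pos_self hf, hC.symm _ hf _ (hC.pos_mem hf)]
  filter_upwards [hC.Γ_pos hf hf, hC.Γ_nonneg_ae hf] with x h1 h2
  rw [h1]
  split_ifs
  · exact le_rfl
  · exact h2

/-- `Γ (f₊) (f₋) = 0`. -/
theorem Γ_pos_neg (hf : f ∈ C.W) : C.Γ (f ⊔ 0) ((-f) ⊔ 0) = 0 := by
  rw [eq_iff_ae]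
  have hn := hC.neg_mem' hf
  filter_upwards [hC.Γ_pos hf (hC.pos_mem hn), hC.Γ_pos hn hf,
    eq_iff_ae.1 (hC.symm _ hf _ (hC.pos_mem hn)), neg_ae f, zero_ae (M := M) (m := m)]
    with x h1 h2 h3 h4 h5
  rw [h1, h5, h3, h2, h4]
  by_cases hx : 0 < f x
  · rw [if_pos hx, if_neg (by linarith)]
  · rw [if_neg hx]

/-- `(f₊ ...)` : bounded classes stay bounded. -/
theorem memLp_sup {p : ℝ≥0∞} (hf : MemLp f p m) (hg : MemLp g p m) : MemLp (f ⊔ g : M →ₘ[m] ℝ) p m :=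
  (hf.sup hg).ae_eq (AEEqFun.coeFn_sup f g).symm

theorem memLp_inf {p : ℝ≥0∞} (hf : MemLp f p m) (hg : MemLp g p m) : MemLp (f ⊓ g : M →ₘ[m] ℝ) p m :=
  (hf.inf hg).ae_eq (AEEqFun.coeFn_inf f g).symm

end IsDir

end Vale.Agent.P233
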